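import Vale.Agent.P243.Bang
import Vale.Agent.P243.Cover4

open MeasureTheory Set

namespace Vale.Agent.Results.P243.BangHalfAreaFails

open Vale.Agent.P243

theorem result :
    (∃ K : Set E3, IsConvexBody K ∧ 0 < Amin K ∧
      ∃ (m : ℕ) (u : Fin m → E3) (B : Fin m → Set E3),
        IsCylinderCovering K u B ∧ totalArea u B ≤ 4999 / 10000 * Amin K) ∧
    ¬ HalfAreaInequality ∧ c3 ≤ 4999 / 10000 ∧
    ¬ CylinderCoveringConjecture ∧ r3 ≤ 93129 / 190400 := by
  obtain ⟨m, u, B, hc, h0, ht⟩ := twisted_ratio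
  refine ⟨⟨regTet, regTet_body, h0, m, u, B, hc, ht⟩, ?_, ?_, ?_, ?_⟩
  · intro hB
    have h1 := hB regTet regTet_body m u B hc
    linarith
  · refine (c3_le regTet_body hc).trans ?_
    rw [div_le_iff₀ h0]
    exact ht
  · intro hB
    have h1 := hB simplex3 simplex3_body 4 _ _ cover4
    have h2 := cover4_relArea
    linarith
  · exact (r3_le simplex3_body cover4).trans cover4_relArea

end Vale.Agent.Results.P243.BangHalfAreaFails
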