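import Vale.Agent.P243.Cover4

open MeasureTheory Set

namespace Vale.Agent.Results.P243.StrongFormFails

open Vale.Agent.P243

theorem result :
    (∃ K : Set E3, IsConvexBody K ∧ ∃ (u : Fin 4 → E3) (B : Fin 4 → Set E3),
      IsCylinderCovering K u B ∧ relArea K u B ≤ 93129 / 190400) ∧
    ¬ CylinderCoveringConjecture ∧
    r3 ≤ 93129 / 190400 ∧ r3 < 1 / 2 := by
  have h : r3 ≤ 93129 / 190400 := (r3_le simplex3_body cover4).trans cover4_relArea
  refine ⟨⟨simplex3, simplex3_body, _, _, cover4, cover4_relArea⟩, ?_, h, ?_⟩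
  · intro hc
    have h1 := hc simplex3 simplex3_body 4 _ _ cover4
    have h2 := cover4_relArea
    linarith
  · linarith

end Vale.Agent.Results.P243.StrongFormFails
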